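import Vale.Agent.P298.H373.Nu
import Vale.Agent.P298.H967.InI
import Vale.Agent.P097.H407.Hol

/-!
# P298, row IRV-AREA (helper373), part 5: the hypotheses `AreaI`, `AreaII` of helper967
-/

namespace Vale.Agent.P298.H373

open MeasureTheory Set Filter Topology Metric Vale.Agent.P298 Vale.Agent.P298.H379
  Vale.Agent.P298.H98
open scoped ENNReal

theorem areaI : H967.AreaI := by
  intro Ω f s φ hΩ hf hφm hφ
  exact measurable_rootSum hΩ (P097.Hol.analyticOnNhd_of_differentiableOn hΩ hf) s hφm hφ

theorem areaII : H967.AreaII := by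
  intro Ω f a b s φ hΩ hf ha hb hφm hφ
  exact nu_area hΩ (P097.Hol.analyticOnNhd_of_differentiableOn hΩ hf)
    (P097.Hol.analyticOnNhd_of_differentiableOn hΩ ha)
    (P097.Hol.analyticOnNhd_of_differentiableOn hΩ hb) s hφm hφ

end Vale.Agent.P298.H373
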