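import Vale.Agent.P298.H373.Area

/-!
# P298, row IRV-AREA (helper373), part 4: the functional `nu`

* `measurable_rootSum`; `exists_measure`: `nu f s` is the integral with respect to an s-finite
  measure concentrated on `{x ∈ Ω | f x = s, ∂₃ f x ≠ 0}`;
* `nu_area`: area formula for `(a, b)` on the surface; `nu_coord`: coordinate independence;
* `ae_regular`: Sard.
-/

namespace Vale.Agent.P298.H373

open MeasureTheory Set Filter Topology Metric Vale.Agent.P298 Vale.Agent.P298.H379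
  Vale.Agent.P298.H98
open scoped ENNReal

variable {f a b : (Fin 3 → ℂ) → ℂ} {Ω : Set (Fin 3 → ℂ)} {s : ℂ} {i j k : Fin 3}
  {φ : (Fin 3 → ℂ) → ℝ≥0∞}

theorem pr_pt (p : ℂ × ℂ) (z : ℂ) : pr 0 1 (pt p z) = p := rfl

theorem pt_pr (x : Fin 3 → ℂ) : pt (pr 0 1 x) (x 2) = x := by
  funext l
  fin_cases l <;> rfl

theorem pt_two (p : ℂ × ℂ) (z : ℂ) : pt p z 2 = z := rfl

theorem pt_injective (p : ℂ × ℂ) : Function.Injective (pt p) := fun z w h => by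
  rw [← pt_two p z, ← pt_two p w, h]

theorem rootSum_eq_fsum (hφ : ∀ x, x ∉ Ω → φ x = 0) (p : ℂ × ℂ) :
    rootSum f s φ p = fsum (pr 0 1) (Reg f Ω s 2) (fun x => φ x / ‖pd 2 f x‖ₑ ^ 2) p := by
  unfold rootSum fsum
  have hinj : Function.Injective fun z : Rts f s p => pt p z := fun z w h =>
    Subtype.ext (pt_injective p h)
  rw [← hinj.tsum_eq]
  · refine tsum_congr fun z => ?_
    by_cases hz : pt p z ∈ Ω
    · rw [indicator_of_mem]
      exact ⟨⟨hz, z.2.1, z.2.2⟩, pr_pt p z⟩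
    · rw [hφ _ hz, indicator_of_notMem, ENNReal.zero_div]
      exact fun h => hz h.1.1
  · intro x hx
    rw [Function.mem_support] at hx
    have hx' : x ∈ Reg f Ω s 2 ∩ pr 0 1 ⁻¹' {p} := by
      by_contra h
      exact hx (indicator_of_notMem h _)
    have hxp : pr 0 1 x = p := hx'.2
    have hx2 : pt p (x 2) = x := by rw [← hxp]; exact pt_pr x
    refine ⟨⟨x 2, ?_⟩, hx2⟩
    change f (pt p (x 2)) = s ∧ pd 2 f (pt p (x 2)) ≠ 0
    rw [hx2]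
    exact hx'.1.2

theorem measurable_rootSum (hΩ : IsOpen Ω) (hf : AnalyticOnNhd ℂ f Ω) (s : ℂ)
    (hφm : Measurable φ) (hφ : ∀ x, x ∉ Ω → φ x = 0) : Measurable (rootSum f s φ) := by
  have h1 : rootSum f s φ =
      fsum (pr 0 1) (Reg f Ω s 2) (fun x => φ x / ‖pd 2 f x‖ₑ ^ 2) := by
    funext p; exact rootSum_eq_fsum hφ p
  rw [h1]
  exact measurable_fsum_pr hΩ hf (by decide) (by decide) (by decide) s
    (hφm.div ((measurable_pd 2 f).enorm.pow_const 2))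

theorem nu_eq_fsum (s : ℂ) (hφ : ∀ x, x ∉ Ω → φ x = 0) :
    nu f s φ = ∫⁻ p, fsum (pr 0 1) (Reg f Ω s 2) (fun x => φ x / ‖pd 2 f x‖ₑ ^ 2) p :=
  lintegral_congr fun p => rootSum_eq_fsum hφ p

/-- the fibre of `(f, a, b)` over `(s, q)` in `Ω`, at which `∂₃ f ≠ 0` and the Jacobian
determinant does not vanish -/
def Fib (f a b : (Fin 3 → ℂ) → ℂ) (Ω : Set (Fin 3 → ℂ)) (s : ℂ) (q : ℂ × ℂ) :
    Set (Fin 3 → ℂ) :=
  {x | x ∈ Ω ∧ f x = s ∧ a x = q.1 ∧ b x = q.2 ∧ pd 2 f x ≠ 0 ∧ jac3 f a b x ≠ 0}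

theorem fsum_eq_tsum_Fib (φ : (Fin 3 → ℂ) → ℝ≥0∞) (q : ℂ × ℂ) :
    fsum (fun x => (a x, b x)) (Reg f Ω s 2 ∩ {x | jac3 f a b x ≠ 0}) φ q =
      ∑' x : Fib f a b Ω s q, φ x := by
  unfold fsum
  rw [tsum_subtype]
  refine tsum_congr fun x => ?_
  congr 1
  ext y
  constructor
  · rintro ⟨⟨⟨h1, h2, h3⟩, h4⟩, h5⟩
    have h6 : (a y, b y) = q := h5
    exact ⟨h1, h2, congrArg Prod.fst h6, congrArg Prod.snd h6, h3, h4⟩
  · rintro ⟨h1, h2, h3, h4, h5, h6⟩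
    exact ⟨⟨⟨h1, h2, h5⟩, h6⟩, Prod.ext h3 h4⟩

theorem measurable_tsum_Fib (hΩ : IsOpen Ω) (hf : AnalyticOnNhd ℂ f Ω)
    (ha : AnalyticOnNhd ℂ a Ω) (hb : AnalyticOnNhd ℂ b Ω) (s : ℂ) (hφm : Measurable φ) :
    Measurable fun q : ℂ × ℂ => ∑' x : Fib f a b Ω s q, φ x := by
  have h1 := (area_fsum hΩ hf ha hb (i := 0) (j := 1) (k := 2) (by decide) (by decide)
    (by decide) s hφm).1
  have h2 : (fun q : ℂ × ℂ => ∑' x : Fib f a b Ω s q, φ x) =
      fsum (fun x => (a x, b x)) (Reg f Ω s 2 ∩ {x | jac3 f a b x ≠ 0}) φ := by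
    funext q; exact (fsum_eq_tsum_Fib φ q).symm
  rw [h2]
  exact h1

/-- **Area formula on the surface** `f = s`. -/
theorem nu_area (hΩ : IsOpen Ω) (hf : AnalyticOnNhd ℂ f Ω)
    (ha : AnalyticOnNhd ℂ a Ω) (hb : AnalyticOnNhd ℂ b Ω) (s : ℂ) (hφm : Measurable φ)
    (hφ : ∀ x, x ∉ Ω → φ x = 0) :
    nu f s (fun x => ‖jac3 f a b x‖ₑ ^ 2 * φ x) =
      ∫⁻ q : ℂ × ℂ, ∑' x : Fib f a b Ω s q, φ x := by
  rw [nu_eq_fsum s (fun x hx => by rw [hφ x hx, mul_zero]),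
    (area_fsum hΩ hf ha hb (i := 0) (j := 1) (k := 2) (by decide) (by decide)
    (by decide) s hφm).2]
  exact lintegral_congr fun q => fsum_eq_tsum_Fib φ q

/-- `nu` is the integral with respect to an s-finite measure. -/
theorem exists_measure (hΩ : IsOpen Ω) (hf : AnalyticOnNhd ℂ f Ω) (s : ℂ) :
    ∃ ν : Measure (Fin 3 → ℂ), SFinite ν ∧ ν (Reg f Ω s 2)ᶜ = 0 ∧
      ∀ φ : (Fin 3 → ℂ) → ℝ≥0∞, Measurable φ → (∀ x, x ∉ Ω → φ x = 0) →
        nu f s φ = ∫⁻ x, φ x ∂ν := by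
  obtain ⟨P, A, hA, hdis, hAU, hReg⟩ :=
    exists_patches hΩ hf (i := 0) (j := 1) (k := 2) (by decide) (by decide) (by decide) s
  have hAs : ∀ n, ∀ x ∈ A n, f x = s := fun n x hx =>
    Reg_subset_level f Ω s 2 x (by rw [hReg]; exact mem_iUnion.2 ⟨n, hx⟩)
  let w : (Fin 3 → ℂ) → ℝ≥0∞ := fun x => (‖pd 2 f x‖ₑ ^ 2)⁻¹
  have hw : Measurable w := ((measurable_pd 2 f).enorm.pow_const 2).inv
  let m : ℕ → Measure (ℂ × ℂ) := fun n =>
    ((volume : Measure (ℂ × ℂ)).restrict ((P n).dom (A n))).withDensity fun p => w ((P n).g p)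
  let ν : Measure (Fin 3 → ℂ) := Measure.sum fun n => (m n).map (P n).g
  have hint : ∀ ψ : (Fin 3 → ℂ) → ℝ≥0∞, Measurable ψ →
      ∫⁻ x, ψ x ∂ν = ∑' n, ∫⁻ p in (P n).dom (A n), w ((P n).g p) * ψ ((P n).g p) := by
    intro ψ hψ
    rw [lintegral_sum_measure]
    refine tsum_congr fun n => ?_
    rw [lintegral_map hψ (P n).meas]
    exact lintegral_withDensity_eq_lintegral_mul _ (hw.comp (P n).meas) (hψ.comp (P n).meas)
  have hRm : MeasurableSet (Reg f Ω s 2) := measurableSet_Reg hΩ hf.continuousOn s 2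
  refine ⟨ν, inferInstance, ?_, ?_⟩
  · rw [← lintegral_indicator_one hRm.compl, hint _ (measurable_one.indicator hRm.compl),
      ENNReal.tsum_eq_zero]
    intro n
    have h1 : ∀ p ∈ (P n).dom (A n), w ((P n).g p) *
        (Reg f Ω s 2)ᶜ.indicator (1 : (Fin 3 → ℂ) → ℝ≥0∞) ((P n).g p) = 0 := by
      intro p hp
      have h2 : (P n).g p ∈ Reg f Ω s 2 := by
        rw [hReg]; exact mem_iUnion.2 ⟨n, hp.2⟩
      rw [indicator_of_notMem (notMem_compl_iff.2 h2), mul_zero]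
    rw [setLIntegral_congr_fun ((P n).measurableSet_dom (hA n)) h1]
    simp
  · intro φ hφm hφ
    rw [nu_eq_fsum s hφ, hint φ hφm]
    have h1 : ∀ p, fsum (pr 0 1) (Reg f Ω s 2) (fun x => φ x / ‖pd 2 f x‖ₑ ^ 2) p =
        ∑' n, ((P n).dom (A n)).indicator (fun q => w ((P n).g q) * φ ((P n).g q)) p := by
      intro p
      rw [hReg, fsum_iUnion hdis]
      refine tsum_congr fun n => ?_
      rw [(P n).fsum_pr (hAU n) (hAs n)]
      congr 1
      funext q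
      rw [ENNReal.div_eq_inv_mul]
    simp only [h1]
    have h2 : ∀ n, AEMeasurable (((P n).dom (A n)).indicator
        (fun q => w ((P n).g q) * φ ((P n).g q))) (volume : Measure (ℂ × ℂ)) := fun n =>
      (((hw.comp (P n).meas).mul (hφm.comp (P n).meas)).indicator
        ((P n).measurableSet_dom (hA n))).aemeasurable
    rw [lintegral_tsum h2]
    exact tsum_congr fun n => lintegral_indicator ((P n).measurableSet_dom (hA n)) _

theorem nu_mono {φ ψ : (Fin 3 → ℂ) → ℝ≥0∞} (h : ∀ x, f x = s → pd 2 f x ≠ 0 → φ x ≤ ψ x) :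
    nu f s φ ≤ nu f s ψ := by
  refine lintegral_mono fun p => ?_
  refine ENNReal.tsum_le_tsum fun z => ?_
  exact ENNReal.div_le_div_right (h _ z.2.1 z.2.2) _

theorem nu_congr {φ ψ : (Fin 3 → ℂ) → ℝ≥0∞} (h : ∀ x, f x = s → pd 2 f x ≠ 0 → φ x = ψ x) :
    nu f s φ = nu f s ψ :=
  le_antisymm (nu_mono fun x h1 h2 => (h x h1 h2).le) (nu_mono fun x h1 h2 => (h x h1 h2).ge)

theorem nu_zero : nu f s (fun _ => 0) = 0 := by
  simp [nu, rootSum]

theorem nu_add (hΩ : IsOpen Ω) (hf : AnalyticOnNhd ℂ f Ω) (s : ℂ)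
    {φ ψ : (Fin 3 → ℂ) → ℝ≥0∞} (hφm : Measurable φ)
    (hφ : ∀ x, x ∉ Ω → φ x = 0) : nu f s (fun x => φ x + ψ x) = nu f s φ + nu f s ψ := by
  unfold nu
  rw [← lintegral_add_left (measurable_rootSum hΩ hf s hφm hφ)]
  refine lintegral_congr fun p => ?_
  unfold rootSum
  rw [← ENNReal.tsum_add]
  exact tsum_congr fun z => ENNReal.add_div

theorem nu_const_mul (hΩ : IsOpen Ω) (hf : AnalyticOnNhd ℂ f Ω) (s : ℂ) (c : ℝ≥0∞)
    (hφm : Measurable φ) (hφ : ∀ x, x ∉ Ω → φ x = 0) :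
    nu f s (fun x => c * φ x) = c * nu f s φ := by
  unfold nu
  rw [← lintegral_const_mul c (measurable_rootSum hΩ hf s hφm hφ)]
  refine lintegral_congr fun p => ?_
  unfold rootSum
  rw [← ENNReal.tsum_mul_left]
  exact tsum_congr fun z => by rw [mul_div_assoc]

theorem nu_tsum (hΩ : IsOpen Ω) (hf : AnalyticOnNhd ℂ f Ω) (s : ℂ)
    {φ : ℕ → (Fin 3 → ℂ) → ℝ≥0∞} (hφm : ∀ n, Measurable (φ n))
    (hφ : ∀ n, ∀ x, x ∉ Ω → φ n x = 0) :
    nu f s (fun x => ∑' n, φ n x) = ∑' n, nu f s (φ n) := by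
  obtain ⟨ν, -, -, h⟩ := exists_measure hΩ hf s
  rw [h _ (Measurable.tsum hφm) (fun x hx => by
      rw [ENNReal.tsum_eq_zero]; exact fun n => hφ n x hx),
    lintegral_tsum fun n => (hφm n).aemeasurable]
  exact tsum_congr fun n => (h _ (hφm n) (hφ n)).symm

theorem nu_iSup (hΩ : IsOpen Ω) (hf : AnalyticOnNhd ℂ f Ω) (s : ℂ)
    {φ : ℕ → (Fin 3 → ℂ) → ℝ≥0∞} (hφm : ∀ n, Measurable (φ n)) (hmono : Monotone φ)
    (hφ : ∀ n, ∀ x, x ∉ Ω → φ n x = 0) :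
    nu f s (fun x => ⨆ n, φ n x) = ⨆ n, nu f s (φ n) := by
  obtain ⟨ν, -, -, h⟩ := exists_measure hΩ hf s
  rw [h _ (Measurable.iSup hφm) (fun x hx => by
      simp only [hφ _ x hx, iSup_const]),
    lintegral_iSup hφm hmono]
  exact iSup_congr fun n => (h _ (hφm n) (hφ n)).symm

/-- `nu f s φ ≤ N ∫ Φ` when `φ ≤ |jac|² Φ(a, b)` on the surface and the fibres of `(a, b)` on the
surface in `Ω` have at most `N` points. -/
theorem nu_le_of_fibre (hΩ : IsOpen Ω) (hf : AnalyticOnNhd ℂ f Ω)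
    (ha : AnalyticOnNhd ℂ a Ω) (hb : AnalyticOnNhd ℂ b Ω) (s : ℂ) {Φ : ℂ × ℂ → ℝ≥0∞}
    (hΦ : Measurable Φ) {N : ℕ}
    (hN : ∀ q : ℂ × ℂ, ({x | x ∈ Ω ∧ f x = s ∧ a x = q.1 ∧ b x = q.2} : Set _).encard ≤ N)
    (hφ : ∀ x, x ∉ Ω → φ x = 0)
    (hle : ∀ x ∈ Ω, f x = s → pd 2 f x ≠ 0 → φ x ≤ ‖jac3 f a b x‖ₑ ^ 2 * Φ (a x, b x)) :
    nu f s φ ≤ N * ∫⁻ q, Φ q := by
  classical
  have hΩm : MeasurableSet Ω := hΩ.measurableSet
  have ham : Measurable (Ω.indicator a) := by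
    have := ContinuousOn.measurable_piecewise ha.continuousOn
      (continuousOn_const (c := (0 : ℂ)) (s := Ωᶜ)) hΩm
    have h2 : Ω.piecewise a (fun _ => 0) = Ω.indicator a := by
      funext x; by_cases hx : x ∈ Ω <;> simp [hx]
    rwa [h2] at this
  have hbm : Measurable (Ω.indicator b) := by
    have := ContinuousOn.measurable_piecewise hb.continuousOn
      (continuousOn_const (c := (0 : ℂ)) (s := Ωᶜ)) hΩm
    have h2 : Ω.piecewise b (fun _ => 0) = Ω.indicator b := by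
      funext x; by_cases hx : x ∈ Ω <;> simp [hx]
    rwa [h2] at this
  let ψ : (Fin 3 → ℂ) → ℝ≥0∞ := Ω.indicator fun x => Φ (Ω.indicator a x, Ω.indicator b x)
  have hψm : Measurable ψ := (hΦ.comp (ham.prodMk hbm)).indicator hΩm
  have hψ0 : ∀ x, x ∉ Ω → ψ x = 0 := fun x hx => indicator_of_notMem hx _
  have hψ : ∀ x ∈ Ω, ψ x = Φ (a x, b x) := fun x hx => by
    simp only [ψ, indicator_of_mem hx]
  calc nu f s φ ≤ nu f s (fun x => ‖jac3 f a b x‖ₑ ^ 2 * ψ x) := by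
        refine nu_mono fun x h1 h2 => ?_
        by_cases hx : x ∈ Ω
        · rw [hψ x hx]; exact hle x hx h1 h2
        · rw [hφ x hx]; exact zero_le
    _ = ∫⁻ q : ℂ × ℂ, ∑' x : Fib f a b Ω s q, ψ x := nu_area hΩ hf ha hb s hψm hψ0
    _ ≤ ∫⁻ q : ℂ × ℂ, N * Φ q := by
        refine lintegral_mono fun q => ?_
        have h1 : ∀ x : Fib f a b Ω s q, ψ x = Φ q := by
          intro x
          rw [hψ _ x.2.1, x.2.2.2.1, x.2.2.2.2.1]
        have h2 : (Fib f a b Ω s q).encard ≤ N := by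
          refine (encard_le_encard ?_).trans (hN q)
          exact fun x hx => ⟨hx.1, hx.2.1, hx.2.2.1, hx.2.2.2.1⟩
        simp only [h1]
        rw [ENNReal.tsum_const]
        refine mul_le_mul_left (a := Φ q) ?_ |>.trans_eq rfl
        exact_mod_cast h2
    _ = N * ∫⁻ q, Φ q := lintegral_const_mul _ hΦ

/-- **Sard**: for almost every `q` the points of the surface in `Ω` over `q` are critical points
of `f` or points at which the Jacobian determinant does not vanish. -/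
theorem ae_fibre (hΩ : IsOpen Ω) (hf : AnalyticOnNhd ℂ f Ω)
    (ha : AnalyticOnNhd ℂ a Ω) (hb : AnalyticOnNhd ℂ b Ω) (s : ℂ) :
    ∀ᵐ q : ℂ × ℂ, ∀ x ∈ Ω, f x = s → a x = q.1 → b x = q.2 →
      (∀ l, pd l f x = 0) ∨ jac3 f a b x ≠ 0 := by
  have h := sard hΩ hf ha hb s
  rw [measure_eq_zero_iff_ae_notMem] at h
  filter_upwards [h] with q hq x hx hxs h1 h2
  by_contra hcon
  push Not at hcon
  exact hq ⟨x, ⟨hx, hxs, hcon.1, hcon.2⟩, Prod.ext h1 h2⟩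

theorem pd_proj (l m : Fin 3) (x : Fin 3 → ℂ) :
    pd l (fun y : Fin 3 → ℂ => y m) x = if l = m then 1 else 0 := by
  have h1 : fderiv ℂ (fun y : Fin 3 → ℂ => y m) x = ContinuousLinearMap.proj m :=
    (ContinuousLinearMap.proj m : (Fin 3 → ℂ) →L[ℂ] ℂ).fderiv
  unfold pd
  rw [h1]
  simp [Pi.single_apply, eq_comm]

theorem analyticOnNhd_proj (m : Fin 3) : AnalyticOnNhd ℂ (fun y : Fin 3 → ℂ => y m) Ω :=
  fun x _ => (ContinuousLinearMap.proj m : (Fin 3 → ℂ) →L[ℂ] ℂ).analyticAt x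

theorem norm_jac3_proj (hij : i ≠ j) (hik : i ≠ k) (hjk : j ≠ k) (x : Fin 3 → ℂ) :
    ‖jac3 f (fun y => y i) (fun y => y j) x‖ = ‖pd k f x‖ := by
  rw [← norm_jj hij hik hjk]
  unfold jj
  simp only [pd_proj]
  simp [hij, hij.symm, hik.symm, hjk.symm]

/-- **Sard** for the projection: for almost every `p` all roots `z` of `f (p, z) = s` with
`(p, z) ∈ Ω` at noncritical points are nondegenerate. -/
theorem ae_regular (hΩ : IsOpen Ω) (hf : AnalyticOnNhd ℂ f Ω) (s : ℂ)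
    (hcrit : ({x | x ∈ Ω ∧ f x = s ∧ ∀ l, pd l f x = 0} : Set (Fin 3 → ℂ)).Countable) :
    ∀ᵐ p : ℂ × ℂ, ∀ z, pt p z ∈ Ω → f (pt p z) = s → pd 2 f (pt p z) ≠ 0 := by
  have h1 := ae_fibre hΩ hf (analyticOnNhd_proj 0) (analyticOnNhd_proj 1) s
  have h2 : ∀ᵐ p : ℂ × ℂ, p ∉ pr 0 1 ''
      ({x | x ∈ Ω ∧ f x = s ∧ ∀ l, pd l f x = 0} : Set (Fin 3 → ℂ)) := by
    rw [← measure_eq_zero_iff_ae_notMem]
    exact (hcrit.image _).measure_zero _
  filter_upwards [h1, h2] with p hp1 hp2 z hz hzs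
  rcases hp1 (pt p z) hz hzs rfl rfl with h | h
  · exact absurd ⟨pt p z, ⟨hz, hzs, h⟩, pr_pt p z⟩ hp2
  · intro h0
    apply h
    rw [← norm_eq_zero, norm_jac3_proj (k := 2) (by decide) (by decide) (by decide), h0,
      norm_zero]

/-- **Coordinate independence** of `nu`. -/
theorem nu_coord (hΩ : IsOpen Ω) (hf : AnalyticOnNhd ℂ f Ω) (hij : i ≠ j) (hik : i ≠ k)
    (hjk : j ≠ k) (s : ℂ) (hφm : Measurable φ) (hφ : ∀ x, x ∉ Ω → φ x = 0)
    (hφk : ∀ x, f x = s → pd 2 f x ≠ 0 → pd k f x = 0 → φ x = 0) :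
    nu f s φ = ∫⁻ q : ℂ × ℂ,
      ∑' x : {x // x ∈ Ω ∧ f x = s ∧ x i = q.1 ∧ x j = q.2 ∧ pd 2 f x ≠ 0 ∧ pd k f x ≠ 0},
        φ x / ‖pd k f x‖ₑ ^ 2 := by
  have hm : Measurable fun x => φ x / ‖pd k f x‖ₑ ^ 2 :=
    hφm.div ((measurable_pd k f).enorm.pow_const 2)
  have h0 : nu f s φ = nu f s (fun x =>
      ‖jac3 f (fun y => y i) (fun y => y j) x‖ₑ ^ 2 * (φ x / ‖pd k f x‖ₑ ^ 2)) := by
    refine nu_congr fun x h1 h2 => ?_
    have h3 : ‖jac3 f (fun y => y i) (fun y => y j) x‖ₑ = ‖pd k f x‖ₑ := by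
      rw [← ofReal_norm, ← ofReal_norm, norm_jac3_proj hij hik hjk]
    rw [h3]
    by_cases h4 : pd k f x = 0
    · rw [hφk x h1 h2 h4]; simp
    · rw [ENNReal.mul_div_cancel]
      · simpa using h4
      · finiteness
  rw [h0, nu_area hΩ hf (analyticOnNhd_proj i) (analyticOnNhd_proj j) s hm
    (fun x hx => by rw [hφ x hx]; simp)]
  refine lintegral_congr fun q => ?_
  have hset : Fib f (fun y => y i) (fun y => y j) Ω s q =
      {x | x ∈ Ω ∧ f x = s ∧ x i = q.1 ∧ x j = q.2 ∧ pd 2 f x ≠ 0 ∧ pd k f x ≠ 0} := by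
    ext x
    have h3 : jac3 f (fun y => y i) (fun y => y j) x ≠ 0 ↔ pd k f x ≠ 0 := by
      rw [← norm_ne_zero_iff, norm_jac3_proj hij hik hjk, norm_ne_zero_iff]
    simp only [Fib, mem_ofPred_eq, h3]
  rw [hset]
  rfl

end Vale.Agent.P298.H373
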