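import Vale.Agent.P298.H373.Jac

/-!
# P298, row IRV-AREA (helper373), part 3: the area formula on the surface `f = s`
-/

namespace Vale.Agent.P298.H373

open MeasureTheory Set Filter Topology Metric Vale.Agent.P298 Vale.Agent.P298.H379
  Vale.Agent.P298.H98
open scoped ENNReal

variable {f a b : (Fin 3 → ℂ) → ℂ} {Ω : Set (Fin 3 → ℂ)} {s : ℂ} {i j k : Fin 3}

instance instHaarC2 : (volume : Measure (ℂ × ℂ)).IsAddHaarMeasure :=
  Measure.prod.instIsAddHaarMeasure volume volume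

/-- projection to two coordinates -/
def pr (i j : Fin 3) (x : Fin 3 → ℂ) : ℂ × ℂ := (x i, x j)

theorem Reg_subset_level (f : (Fin 3 → ℂ) → ℂ) (Ω : Set (Fin 3 → ℂ)) (s : ℂ) (k : Fin 3) :
    ∀ x ∈ Reg f Ω s k, f x = s := fun _ hx => hx.2.1

namespace Patch

variable (P : Patch f Ω s i j k) {A : Set (Fin 3 → ℂ)}

/-- the part of the patch domain over `A` -/
def dom (A : Set (Fin 3 → ℂ)) : Set (ℂ × ℂ) := P.W ∩ P.g ⁻¹' A

theorem measurableSet_dom (hA : MeasurableSet A) : MeasurableSet (P.dom A) :=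
  P.hW.measurableSet.inter (P.meas hA)

theorem pr_g {p : ℂ × ℂ} (hp : p ∈ P.W) : pr i j (P.g p) = p :=
  Prod.ext (P.gi p hp) (P.gj p hp)

theorem injOn : InjOn P.g P.W := fun p hp q hq h => by
  rw [← P.pr_g hp, ← P.pr_g hq, h]

theorem mem_image {x : Fin 3 → ℂ} (hx : x ∈ P.U) (hs : f x = s) : x ∈ P.g '' P.W :=
  ⟨(x i, x j), (P.inv x hx hs).1, (P.inv x hx hs).2⟩

theorem fsum_eq {Y : Type*} (F : (Fin 3 → ℂ) → Y) (hAU : A ⊆ P.U) (hAs : ∀ x ∈ A, f x = s)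
    (ψ : (Fin 3 → ℂ) → ℝ≥0∞) (y : Y) :
    fsum F A ψ y = fsum (fun p => F (P.g p)) (P.dom A) (fun p => ψ (P.g p)) y :=
  fsum_comp P.injOn (fun x hx h => absurd (P.mem_image (hAU hx) (hAs x hx)) h) y

theorem fsum_pr (hAU : A ⊆ P.U) (hAs : ∀ x ∈ A, f x = s)
    (ψ : (Fin 3 → ℂ) → ℝ≥0∞) (p : ℂ × ℂ) :
    fsum (pr i j) A ψ p = (P.dom A).indicator (fun q => ψ (P.g q)) p := by
  rw [P.fsum_eq (pr i j) hAU hAs ψ p]
  have hinj : InjOn (fun q => pr i j (P.g q)) (P.dom A) := by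
    intro q hq q' hq' h
    simpa only [P.pr_g hq.1, P.pr_g hq'.1] using h
  by_cases hp : p ∈ P.dom A
  · rw [indicator_of_mem hp]
    have h1 := fsum_of_injOn (g := fun q => ψ (P.g q)) hinj hp
    simp only [P.pr_g hp.1] at h1
    exact h1
  · rw [indicator_of_notMem hp]
    apply fsum_of_notMem
    rintro ⟨q, hq, h⟩
    simp only [P.pr_g hq.1] at h
    exact hp (h ▸ hq)

/-- the real Jacobian determinant of `(a, b)` in a patch -/
theorem abs_det_tau (hij : i ≠ j) (hik : i ≠ k) (hjk : j ≠ k) (hf : AnalyticOnNhd ℂ f Ω)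
    (ha : AnalyticOnNhd ℂ a Ω) (hb : AnalyticOnNhd ℂ b Ω) {p : ℂ × ℂ} (hp : p ∈ P.W) :
    ENNReal.ofReal |((fderiv ℂ (P.tau a b) p).restrictScalars ℝ).det| =
      ‖jac3 f a b (P.g p)‖ₑ ^ 2 / ‖pd k f (P.g p)‖ₑ ^ 2 := by
  have h0 : pd k f (P.g p) ≠ 0 := P.hne _ (P.gU p hp)
  have h1 := P.det_tau hij hik hjk hf ha hb hp
  rw [det_restrictScalars_prod, abs_of_nonneg (by positivity)]
  have h2 : ‖LinearMap.det (fderiv ℂ (P.tau a b) p : ℂ × ℂ →ₗ[ℂ] ℂ × ℂ)‖ =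
      ‖jac3 f a b (P.g p)‖ / ‖pd k f (P.g p)‖ := by
    rw [eq_div_iff (norm_ne_zero_iff.2 h0), ← norm_mul, h1, norm_jj hij hik hjk]
  rw [h2, div_pow, ENNReal.ofReal_div_of_pos (by positivity), ENNReal.ofReal_pow (norm_nonneg _),
    ENNReal.ofReal_pow (norm_nonneg _), ofReal_norm, ofReal_norm]

theorem det_tau_ne (hij : i ≠ j) (hik : i ≠ k) (hjk : j ≠ k) (hf : AnalyticOnNhd ℂ f Ω)
    (ha : AnalyticOnNhd ℂ a Ω) (hb : AnalyticOnNhd ℂ b Ω) {p : ℂ × ℂ} (hp : p ∈ P.W)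
    (hJ : jac3 f a b (P.g p) ≠ 0) :
    ((fderiv ℂ (P.tau a b) p).restrictScalars ℝ).det ≠ 0 := by
  have h1 := P.det_tau hij hik hjk hf ha hb hp
  rw [det_restrictScalars_prod]
  have h2 : LinearMap.det (fderiv ℂ (P.tau a b) p : ℂ × ℂ →ₗ[ℂ] ℂ × ℂ) ≠ 0 := by
    intro h
    rw [h, zero_mul] at h1
    have := norm_jj hij hik hjk f a b (P.g p)
    rw [← h1, norm_zero] at this
    exact hJ (norm_eq_zero.1 this.symm)
  have := norm_ne_zero_iff.2 h2
  positivity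

theorem det_tau_eq_zero (hij : i ≠ j) (hik : i ≠ k) (hjk : j ≠ k) (hf : AnalyticOnNhd ℂ f Ω)
    (ha : AnalyticOnNhd ℂ a Ω) (hb : AnalyticOnNhd ℂ b Ω) {p : ℂ × ℂ} (hp : p ∈ P.W)
    (hJ : jac3 f a b (P.g p) = 0) :
    ((fderiv ℂ (P.tau a b) p).restrictScalars ℝ).det = 0 := by
  have h0 : pd k f (P.g p) ≠ 0 := P.hne _ (P.gU p hp)
  have h1 := P.det_tau hij hik hjk hf ha hb hp
  rw [det_restrictScalars_prod]
  have h3 : jj f a b i j k (P.g p) = 0 := by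
    have := norm_jj hij hik hjk f a b (P.g p)
    rw [hJ, norm_zero] at this
    exact norm_eq_zero.1 this
  rw [h3] at h1
  rw [(mul_eq_zero.1 h1).resolve_right h0]
  simp

theorem area_piece (hij : i ≠ j) (hik : i ≠ k) (hjk : j ≠ k) (hf : AnalyticOnNhd ℂ f Ω)
    (ha : AnalyticOnNhd ℂ a Ω) (hb : AnalyticOnNhd ℂ b Ω) (hA : MeasurableSet A)
    (hAU : A ⊆ P.U) (hAs : ∀ x ∈ A, f x = s) (hJ : ∀ x ∈ A, jac3 f a b x ≠ 0)
    {φ : (Fin 3 → ℂ) → ℝ≥0∞} (hφ : Measurable φ) :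
    Measurable (fsum (fun x => (a x, b x)) A φ) ∧
      ∫⁻ p in P.dom A, ‖jac3 f a b (P.g p)‖ₑ ^ 2 / ‖pd k f (P.g p)‖ₑ ^ 2 * φ (P.g p) =
        ∫⁻ q, fsum (fun x => (a x, b x)) A φ q := by
  have h1 : fsum (fun x => (a x, b x)) A φ =
      fsum (P.tau a b) (P.dom A) (fun p => φ (P.g p)) := by
    funext y
    exact P.fsum_eq (fun x => (a x, b x)) hAU hAs φ y
  rw [h1]
  have h2 := area (volume : Measure (ℂ × ℂ)) (P.measurableSet_dom hA) (f := P.tau a b)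
    (f' := fun p => (fderiv ℂ (P.tau a b) p).restrictScalars ℝ)
    (fun p hp => ((P.contDiffAt_tau ha hb hp.1).hasStrictFDerivAt
      one_ne_zero).restrictScalars ℝ)
    (fun p hp => P.det_tau_ne hij hik hjk hf ha hb hp.1 (hJ _ hp.2))
    (g := fun p => φ (P.g p)) ((hφ.comp P.meas).comp measurable_subtype_coe)
  refine ⟨h2.1, ?_⟩
  rw [← h2.2]
  refine setLIntegral_congr_fun (P.measurableSet_dom hA) fun p hp => ?_
  rw [P.abs_det_tau hij hik hjk hf ha hb hp.1]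

theorem sard_piece (hij : i ≠ j) (hik : i ≠ k) (hjk : j ≠ k) (hf : AnalyticOnNhd ℂ f Ω)
    (ha : AnalyticOnNhd ℂ a Ω) (hb : AnalyticOnNhd ℂ b Ω)
    (hAU : A ⊆ P.U) (hAs : ∀ x ∈ A, f x = s) (hJ : ∀ x ∈ A, jac3 f a b x = 0) :
    volume ((fun x => (a x, b x)) '' A) = 0 := by
  have h1 : (fun x => (a x, b x)) '' A ⊆ P.tau a b '' (P.dom A) := by
    rintro _ ⟨x, hx, rfl⟩
    obtain ⟨p, hp, hpx⟩ := P.mem_image (hAU hx) (hAs x hx)
    refine ⟨p, ⟨hp, by rw [mem_preimage, hpx]; exact hx⟩, ?_⟩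
    simp only [tau, hpx]
  refine measure_mono_null h1 ?_
  exact addHaar_image_eq_zero_of_det_fderivWithin_eq_zero volume
    (fun p hp => (((P.contDiffAt_tau ha hb hp.1).hasStrictFDerivAt
      one_ne_zero).restrictScalars ℝ).hasFDerivAt.hasFDerivWithinAt)
    (fun p hp => P.det_tau_eq_zero hij hik hjk hf ha hb hp.1 (hJ _ hp.2))

end Patch

/-- integration over the regular part of the surface in the coordinates `xᵢ, xⱼ` -/
theorem measurable_fsum_pr (hΩ : IsOpen Ω) (hf : AnalyticOnNhd ℂ f Ω) (hij : i ≠ j) (hik : i ≠ k)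
    (hjk : j ≠ k) (s : ℂ) {ψ : (Fin 3 → ℂ) → ℝ≥0∞} (hψ : Measurable ψ) :
    Measurable (fsum (pr i j) (Reg f Ω s k) ψ) := by
  obtain ⟨P, A, hA, hdis, hAU, hReg⟩ := exists_patches hΩ hf hij hik hjk s
  have hAs : ∀ n, ∀ x ∈ A n, f x = s := fun n x hx =>
    Reg_subset_level f Ω s k x (by rw [hReg]; exact mem_iUnion.2 ⟨n, hx⟩)
  have h1 : fsum (pr i j) (Reg f Ω s k) ψ =
      fun p => ∑' n, ((P n).dom (A n)).indicator (fun q => ψ ((P n).g q)) p := by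
    funext p
    rw [hReg, fsum_iUnion hdis]
    exact tsum_congr fun n => (P n).fsum_pr (hAU n) (hAs n) ψ p
  rw [h1]
  exact Measurable.tsum fun n => (hψ.comp (P n).meas).indicator
    ((P n).measurableSet_dom (hA n))

/-- **Area formula on the surface**, all coordinates. -/
theorem area_fsum (hΩ : IsOpen Ω) (hf : AnalyticOnNhd ℂ f Ω) (ha : AnalyticOnNhd ℂ a Ω)
    (hb : AnalyticOnNhd ℂ b Ω) (hij : i ≠ j) (hik : i ≠ k) (hjk : j ≠ k) (s : ℂ)
    {φ : (Fin 3 → ℂ) → ℝ≥0∞} (hφ : Measurable φ) :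
    Measurable (fsum (fun x => (a x, b x)) (Reg f Ω s k ∩ {x | jac3 f a b x ≠ 0}) φ) ∧
      ∫⁻ p, fsum (pr i j) (Reg f Ω s k)
          (fun x => ‖jac3 f a b x‖ₑ ^ 2 * φ x / ‖pd k f x‖ₑ ^ 2) p =
        ∫⁻ q, fsum (fun x => (a x, b x)) (Reg f Ω s k ∩ {x | jac3 f a b x ≠ 0}) φ q := by
  obtain ⟨P, A, hA, hdis, hAU, hReg⟩ := exists_patches hΩ hf hij hik hjk s
  have hAs : ∀ n, ∀ x ∈ A n, f x = s := fun n x hx =>
    Reg_subset_level f Ω s k x (by rw [hReg]; exact mem_iUnion.2 ⟨n, hx⟩)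
  set J : Set (Fin 3 → ℂ) := {x | jac3 f a b x ≠ 0} with hJdef
  have hJ : MeasurableSet J := (measurable_jac3 f a b) (measurableSet_singleton 0).compl
  have hAJ : ∀ n, MeasurableSet (A n ∩ J) := fun n => (hA n).inter hJ
  have hpiece := fun n => (P n).area_piece hij hik hjk hf ha hb (hAJ n)
    (inter_subset_left.trans (hAU n)) (fun x hx => hAs n x hx.1) (fun x hx => hx.2) hφ
  have hdis' : Pairwise (Function.onFun Disjoint fun n => A n ∩ J) := fun m n hmn =>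
    (hdis hmn).mono inter_subset_left inter_subset_left
  have h1 : fsum (fun x => (a x, b x)) (Reg f Ω s k ∩ J) φ =
      fun q => ∑' n, fsum (fun x => (a x, b x)) (A n ∩ J) φ q := by
    funext q
    rw [hReg, iUnion_inter, fsum_iUnion hdis']
  have h2 : ∀ p, fsum (pr i j) (Reg f Ω s k)
      (fun x => ‖jac3 f a b x‖ₑ ^ 2 * φ x / ‖pd k f x‖ₑ ^ 2) p =
      ∑' n, ((P n).dom (A n ∩ J)).indicator (fun q =>
        ‖jac3 f a b ((P n).g q)‖ₑ ^ 2 / ‖pd k f ((P n).g q)‖ₑ ^ 2 * φ ((P n).g q)) p := by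
    intro p
    rw [hReg, fsum_iUnion hdis]
    refine tsum_congr fun n => ?_
    rw [(P n).fsum_pr (hAU n) (hAs n)]
    by_cases hp : p ∈ (P n).dom (A n)
    · rw [indicator_of_mem hp]
      by_cases hpJ : (P n).g p ∈ J
      · rw [indicator_of_mem (show p ∈ (P n).dom (A n ∩ J) from ⟨hp.1, hp.2, hpJ⟩)]
        rw [ENNReal.div_eq_inv_mul, ENNReal.div_eq_inv_mul]
        ring
      · rw [indicator_of_notMem (fun h => hpJ h.2.2)]
        have : jac3 f a b ((P n).g p) = 0 := by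
          by_contra h
          exact hpJ h
        rw [this]
        simp
    · rw [indicator_of_notMem hp, indicator_of_notMem]
      exact fun h => hp ⟨h.1, h.2.1⟩
  constructor
  · rw [h1]
    exact Measurable.tsum fun n => (hpiece n).1
  · simp only [h1, h2]
    have hm1 : ∀ n, Measurable fun q : ℂ × ℂ =>
        ‖jac3 f a b ((P n).g q)‖ₑ ^ 2 / ‖pd k f ((P n).g q)‖ₑ ^ 2 * φ ((P n).g q) := by
      intro n
      have h3 : Measurable fun x : Fin 3 → ℂ =>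
          ‖jac3 f a b x‖ₑ ^ 2 / ‖pd k f x‖ₑ ^ 2 * φ x :=
        (((measurable_jac3 f a b).enorm.pow_const 2).div
          ((measurable_pd k f).enorm.pow_const 2)).mul hφ
      exact h3.comp (P n).meas
    rw [lintegral_tsum fun n =>
        ((hm1 n).indicator ((P n).measurableSet_dom (hAJ n))).aemeasurable,
      lintegral_tsum fun n => (hpiece n).1.aemeasurable]
    refine tsum_congr fun n => ?_
    rw [lintegral_indicator ((P n).measurableSet_dom (hAJ n))]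
    exact (hpiece n).2

/-- **Sard** on the surface: the values of `(a, b)` at the points of the surface at which
`∂ₖ f ≠ 0` and `jac3 f a b = 0` form a null set. -/
theorem sard_k (hΩ : IsOpen Ω) (hf : AnalyticOnNhd ℂ f Ω) (ha : AnalyticOnNhd ℂ a Ω)
    (hb : AnalyticOnNhd ℂ b Ω) (hij : i ≠ j) (hik : i ≠ k) (hjk : j ≠ k) (s : ℂ) :
    volume ((fun x => (a x, b x)) '' (Reg f Ω s k ∩ {x | jac3 f a b x = 0})) = 0 := by
  obtain ⟨P, A, hA, hdis, hAU, hReg⟩ := exists_patches hΩ hf hij hik hjk s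
  have hAs : ∀ n, ∀ x ∈ A n, f x = s := fun n x hx =>
    Reg_subset_level f Ω s k x (by rw [hReg]; exact mem_iUnion.2 ⟨n, hx⟩)
  rw [hReg, iUnion_inter, image_iUnion]
  refine measure_iUnion_null fun n => ?_
  exact (P n).sard_piece hij hik hjk hf ha hb (inter_subset_left.trans (hAU n))
    (fun x hx => hAs n x hx.1) (fun x hx => hx.2)

/-- **Sard** on the surface: the values of `(a, b)` at the noncritical points of the surface at
which `jac3 f a b = 0` form a null set. -/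
theorem sard (hΩ : IsOpen Ω) (hf : AnalyticOnNhd ℂ f Ω) (ha : AnalyticOnNhd ℂ a Ω)
    (hb : AnalyticOnNhd ℂ b Ω) (s : ℂ) :
    volume ((fun x => (a x, b x)) ''
      {x | x ∈ Ω ∧ f x = s ∧ (∃ l, pd l f x ≠ 0) ∧ jac3 f a b x = 0}) = 0 := by
  have h1 : (fun x => (a x, b x)) ''
      {x | x ∈ Ω ∧ f x = s ∧ (∃ l, pd l f x ≠ 0) ∧ jac3 f a b x = 0} ⊆
      ⋃ l : Fin 3, (fun x => (a x, b x)) '' (Reg f Ω s l ∩ {x | jac3 f a b x = 0}) := by
    rintro _ ⟨x, ⟨h1, h2, ⟨l, h3⟩, h4⟩, rfl⟩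
    exact mem_iUnion.2 ⟨l, x, ⟨⟨h1, h2, h3⟩, h4⟩, rfl⟩
  refine measure_mono_null h1 (measure_iUnion_null fun l => ?_)
  fin_cases l
  · exact sard_k hΩ hf ha hb (i := 1) (j := 2) (by decide) (by decide) (by decide) s
  · exact sard_k hΩ hf ha hb (i := 0) (j := 2) (by decide) (by decide) (by decide) s
  · exact sard_k hΩ hf ha hb (i := 0) (j := 1) (by decide) (by decide) (by decide) s

end Vale.Agent.P298.H373
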