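import Vale.Agent.P298.H373.Patch

/-!
# P298, row IRV-AREA (helper373), part 2: the Jacobian determinant in a patch

In a patch `g` of the surface `f = s` the map `p ↦ (a (g p), b (g p))` has complex Jacobian
determinant `± jac3 f a b / ∂ₖ f`.
-/

namespace Vale.Agent.P298.H373

open MeasureTheory Set Filter Topology Metric Vale.Agent.P298 Vale.Agent.P298.H379
  Vale.Agent.P298.H98
open scoped ENNReal

variable {f a b : (Fin 3 → ℂ) → ℂ} {Ω : Set (Fin 3 → ℂ)} {s : ℂ} {i j k : Fin 3}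

/-- the determinant of an endomorphism of `ℂ²` -/
theorem det_prod (T : ℂ × ℂ →ₗ[ℂ] ℂ × ℂ) :
    LinearMap.det T = (T (1, 0)).1 * (T (0, 1)).2 - (T (0, 1)).1 * (T (1, 0)).2 := by
  rw [← LinearMap.det_toMatrix (Module.Basis.finTwoProd ℂ), Matrix.det_fin_two]
  simp [LinearMap.toMatrix_apply]

theorem det_restrictScalars_prod (T : ℂ × ℂ →L[ℂ] ℂ × ℂ) :
    (T.restrictScalars ℝ).det = ‖LinearMap.det (T : ℂ × ℂ →ₗ[ℂ] ℂ × ℂ)‖ ^ 2 := by
  have h1 : (T.restrictScalars ℝ).det =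
      LinearMap.det ((T : ℂ × ℂ →ₗ[ℂ] ℂ × ℂ).restrictScalars ℝ) := rfl
  rw [h1, LinearMap.det_restrictScalars, Algebra.norm_complex_apply, Complex.normSq_eq_norm_sq]

/-- the determinant with the columns `i, j, k` -/
noncomputable def jj (f a b : (Fin 3 → ℂ) → ℂ) (i j k : Fin 3) (x : Fin 3 → ℂ) : ℂ :=
  pd i f x * (pd j a x * pd k b x - pd k a x * pd j b x) -
    pd j f x * (pd i a x * pd k b x - pd k a x * pd i b x) +
    pd k f x * (pd i a x * pd j b x - pd j a x * pd i b x)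

theorem jj_eq_or (hij : i ≠ j) (hik : i ≠ k) (hjk : j ≠ k) (f a b : (Fin 3 → ℂ) → ℂ)
    (x : Fin 3 → ℂ) : jj f a b i j k x = jac3 f a b x ∨ jj f a b i j k x = - jac3 f a b x := by
  have h0 : jac3 f a b x =
      pd 0 f x * (pd 1 a x * pd 2 b x - pd 2 a x * pd 1 b x) -
      pd 1 f x * (pd 0 a x * pd 2 b x - pd 2 a x * pd 0 b x) +
      pd 2 f x * (pd 0 a x * pd 1 b x - pd 1 a x * pd 0 b x) := by
    simp only [jac3, Matrix.det_fin_three, Matrix.of_apply]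
    simp
    ring
  rw [h0]
  fin_cases i <;> fin_cases j <;> fin_cases k <;>
    first
    | exact absurd rfl hij
    | exact absurd rfl hik
    | exact absurd rfl hjk
    | (left; simp only [jj]; simp only [Fin.mk_one, Fin.zero_eta, Fin.reduceFinMk]; first | done | ring1)
    | (right; simp only [jj]; simp only [Fin.mk_one, Fin.zero_eta, Fin.reduceFinMk]; first | done | ring1)

theorem norm_jj (hij : i ≠ j) (hik : i ≠ k) (hjk : j ≠ k) (f a b : (Fin 3 → ℂ) → ℂ)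
    (x : Fin 3 → ℂ) : ‖jj f a b i j k x‖ = ‖jac3 f a b x‖ := by
  rcases jj_eq_or hij hik hjk f a b x with h | h
  · rw [h]
  · rw [h, norm_neg]

namespace Patch

variable (P : Patch f Ω s i j k)

/-- the map `(a, b)` in the patch -/
noncomputable def tau (a b : (Fin 3 → ℂ) → ℂ) (p : ℂ × ℂ) : ℂ × ℂ := (a (P.g p), b (P.g p))

theorem hasFDerivAt {p : ℂ × ℂ} (hp : p ∈ P.W) : HasFDerivAt P.g (fderiv ℂ P.g p) p :=
  ((P.hg p hp).differentiableAt one_ne_zero).hasFDerivAt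

theorem contDiffAt_tau (ha : AnalyticOnNhd ℂ a Ω) (hb : AnalyticOnNhd ℂ b Ω) {p : ℂ × ℂ}
    (hp : p ∈ P.W) : ContDiffAt ℂ 1 (P.tau a b) p := by
  have h1 : P.g p ∈ Ω := P.hUΩ (P.gU p hp)
  exact (((ha _ h1).contDiffAt).comp p (P.hg p hp)).prodMk
    (((hb _ h1).contDiffAt).comp p (P.hg p hp))

theorem fderiv_tau (ha : AnalyticOnNhd ℂ a Ω) (hb : AnalyticOnNhd ℂ b Ω) {p : ℂ × ℂ}
    (hp : p ∈ P.W) (u : ℂ × ℂ) : fderiv ℂ (P.tau a b) p u =
      (fderiv ℂ a (P.g p) (fderiv ℂ P.g p u), fderiv ℂ b (P.g p) (fderiv ℂ P.g p u)) := by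
  have h1 : P.g p ∈ Ω := P.hUΩ (P.gU p hp)
  have h2 : HasFDerivAt (fun q => a (P.g q)) ((fderiv ℂ a (P.g p)).comp (fderiv ℂ P.g p)) p :=
    HasFDerivAt.comp p (ha _ h1).differentiableAt.hasFDerivAt (P.hasFDerivAt hp)
  have h3 : HasFDerivAt (fun q => b (P.g q)) ((fderiv ℂ b (P.g p)).comp (fderiv ℂ P.g p)) p :=
    HasFDerivAt.comp p (hb _ h1).differentiableAt.hasFDerivAt (P.hasFDerivAt hp)
  have h4 := (h2.prodMk h3).fderiv
  have h5 : P.tau a b = fun q => (a (P.g q), b (P.g q)) := rfl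
  rw [h5, h4]
  rfl

theorem fderiv_i {p : ℂ × ℂ} (hp : p ∈ P.W) (u : ℂ × ℂ) : fderiv ℂ P.g p u i = u.1 := by
  have h1 : HasFDerivAt (fun q => P.g q i)
      ((ContinuousLinearMap.proj i : (Fin 3 → ℂ) →L[ℂ] ℂ).comp (fderiv ℂ P.g p)) p :=
    HasFDerivAt.comp p (ContinuousLinearMap.proj i : (Fin 3 → ℂ) →L[ℂ] ℂ).hasFDerivAt
      (P.hasFDerivAt hp)
  have h2 : HasFDerivAt (fun q => P.g q i) (ContinuousLinearMap.fst ℂ ℂ ℂ) p := by
    refine (hasFDerivAt_fst (𝕜 := ℂ) (E := ℂ) (F := ℂ) (p := p)).congr_of_eventuallyEq ?_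
    filter_upwards [P.hW.mem_nhds hp] with q hq using P.gi q hq
  have h3 := h1.unique h2
  have h4 := congrArg (fun L : ℂ × ℂ →L[ℂ] ℂ => L u) h3
  exact h4

theorem fderiv_j {p : ℂ × ℂ} (hp : p ∈ P.W) (u : ℂ × ℂ) : fderiv ℂ P.g p u j = u.2 := by
  have h1 : HasFDerivAt (fun q => P.g q j)
      ((ContinuousLinearMap.proj j : (Fin 3 → ℂ) →L[ℂ] ℂ).comp (fderiv ℂ P.g p)) p :=
    HasFDerivAt.comp p (ContinuousLinearMap.proj j : (Fin 3 → ℂ) →L[ℂ] ℂ).hasFDerivAt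
      (P.hasFDerivAt hp)
  have h2 : HasFDerivAt (fun q => P.g q j) (ContinuousLinearMap.snd ℂ ℂ ℂ) p := by
    refine (hasFDerivAt_snd (𝕜 := ℂ) (E := ℂ) (F := ℂ) (p := p)).congr_of_eventuallyEq ?_
    filter_upwards [P.hW.mem_nhds hp] with q hq using P.gj q hq
  have h3 := h1.unique h2
  have h4 := congrArg (fun L : ℂ × ℂ →L[ℂ] ℂ => L u) h3
  exact h4

theorem fderiv_f (hf : AnalyticOnNhd ℂ f Ω) {p : ℂ × ℂ} (hp : p ∈ P.W) (u : ℂ × ℂ) :
    fderiv ℂ f (P.g p) (fderiv ℂ P.g p u) = 0 := by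
  have h0 : P.g p ∈ Ω := P.hUΩ (P.gU p hp)
  have h1 : HasFDerivAt (fun q => f (P.g q)) ((fderiv ℂ f (P.g p)).comp (fderiv ℂ P.g p)) p :=
    HasFDerivAt.comp p (hf _ h0).differentiableAt.hasFDerivAt (P.hasFDerivAt hp)
  have h2 : HasFDerivAt (fun q => f (P.g q)) (0 : ℂ × ℂ →L[ℂ] ℂ) p := by
    refine (hasFDerivAt_const s p).congr_of_eventuallyEq ?_
    filter_upwards [P.hW.mem_nhds hp] with q hq using P.gf q hq
  have h3 := h1.unique h2
  have h4 := congrArg (fun L : ℂ × ℂ →L[ℂ] ℂ => L u) h3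
  exact h4

theorem sum_ijk (hij : i ≠ j) (hik : i ≠ k) (hjk : j ≠ k) (F : Fin 3 → ℂ) :
    ∑ l, F l = F i + F j + F k := by
  fin_cases i <;> fin_cases j <;> fin_cases k <;>
    first
    | exact absurd rfl hij
    | exact absurd rfl hik
    | exact absurd rfl hjk
    | (simp [Fin.sum_univ_three]; try ring)

/-- the complex Jacobian determinant of `(a, b)` in a patch -/
theorem det_tau (hij : i ≠ j) (hik : i ≠ k) (hjk : j ≠ k) (hf : AnalyticOnNhd ℂ f Ω)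
    (ha : AnalyticOnNhd ℂ a Ω) (hb : AnalyticOnNhd ℂ b Ω) {p : ℂ × ℂ} (hp : p ∈ P.W) :
    LinearMap.det (fderiv ℂ (P.tau a b) p : ℂ × ℂ →ₗ[ℂ] ℂ × ℂ) * pd k f (P.g p) =
      jj f a b i j k (P.g p) := by
  rw [det_prod]
  simp only [ContinuousLinearMap.coe_coe]
  rw [P.fderiv_tau ha hb hp, P.fderiv_tau ha hb hp]
  have e1 := P.fderiv_i hp (1, 0)
  have e2 := P.fderiv_j hp (1, 0)
  have e3 := P.fderiv_i hp (0, 1)
  have e4 := P.fderiv_j hp (0, 1)
  have e5 := P.fderiv_f hf hp (1, 0)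
  have e6 := P.fderiv_f hf hp (0, 1)
  set v := fderiv ℂ P.g p (1, 0)
  set w := fderiv ℂ P.g p (0, 1)
  set x := P.g p
  rw [fderiv_apply_pd, sum_ijk hij hik hjk] at e5 e6
  simp only [fderiv_apply_pd, sum_ijk hij hik hjk]
  simp only [e1, e2, e3, e4] at *
  simp only [jj]
  linear_combination (pd i a x * pd k b x - pd k a x * pd i b x) * e6 +
    (pd k a x * pd j b x - pd j a x * pd k b x) * e5 

end Patch

end Vale.Agent.P298.H373
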