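import Vale.Agent.P298.H379.Geo
import Vale.Agent.P298.StmtFlag
import Vale.Agent.P298.H98.Area

/-!
# P298, row IRV-AREA (helper373), part 1: local graphs of the surface `f = s`

`Patch f Ω s i j k` is a local parametrization of `{x ∈ Ω | f x = s, ∂ₖ f x ≠ 0}` as a graph over
the plane of the coordinates `xᵢ, xⱼ`; the set is a countable disjoint union of Borel pieces
of patches.
-/

namespace Vale.Agent.P298.H373

open MeasureTheory Set Filter Topology Metric Vale.Agent.P298 Vale.Agent.P298.H379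
  Vale.Agent.P298.H98
open scoped ENNReal

variable {f a b : (Fin 3 → ℂ) → ℂ} {Ω : Set (Fin 3 → ℂ)} {s : ℂ} {i j k : Fin 3}

theorem fderiv_apply_pd (f : (Fin 3 → ℂ) → ℂ) (x v : Fin 3 → ℂ) :
    fderiv ℂ f x v = ∑ l, v l * pd l f x := by
  have h : v = ∑ l, v l • (Pi.single l (1 : ℂ) : Fin 3 → ℂ) := by
    have := (Pi.basisFun ℂ (Fin 3)).sum_repr v
    simpa using this.symm
  conv_lhs => rw [h]
  simp only [map_sum, map_smul, smul_eq_mul, pd]

theorem measurable_pd (k : Fin 3) (f : (Fin 3 → ℂ) → ℂ) : Measurable (pd k f) :=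
  measurable_fderiv_apply_const ℂ f _

theorem measurable_jac3 (f g h : (Fin 3 → ℂ) → ℂ) : Measurable (jac3 f g h) := by
  have h1 : ∀ (k : Fin 3) (u : (Fin 3 → ℂ) → ℂ), Measurable (pd k u) := measurable_pd
  have : jac3 f g h = fun x =>
      pd 0 f x * (pd 1 g x * pd 2 h x - pd 2 g x * pd 1 h x) -
      pd 1 f x * (pd 0 g x * pd 2 h x - pd 2 g x * pd 0 h x) +
      pd 2 f x * (pd 0 g x * pd 1 h x - pd 1 g x * pd 0 h x) := by
    funext x
    simp only [jac3, Matrix.det_fin_three, Matrix.of_apply]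
    simp
    ring
  rw [this]
  fun_prop

/-- the straightening map -/
noncomputable def Psi (f : (Fin 3 → ℂ) → ℂ) (k : Fin 3) (x : Fin 3 → ℂ) : Fin 3 → ℂ :=
  fun l => if l = k then f x else x l

/-- the derivative of the straightening map -/
noncomputable def dPsi (f : (Fin 3 → ℂ) → ℂ) (k : Fin 3) (x : Fin 3 → ℂ) :
    (Fin 3 → ℂ) →L[ℂ] (Fin 3 → ℂ) :=
  ContinuousLinearMap.pi fun l => if l = k then fderiv ℂ f x else ContinuousLinearMap.proj l

theorem hasStrictFDerivAt_Psi {x : Fin 3 → ℂ} (hf : AnalyticAt ℂ f x) (k : Fin 3) :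
    HasStrictFDerivAt (Psi f k) (dPsi f k x) x := by
  refine hasStrictFDerivAt_pi.2 fun l => ?_
  by_cases hl : l = k
  · simp only [Psi, hl, if_true]
    exact hf.hasStrictFDerivAt
  · simp only [Psi, hl, if_false]
    exact (ContinuousLinearMap.proj l : (Fin 3 → ℂ) →L[ℂ] ℂ).hasStrictFDerivAt

theorem contDiffAt_Psi {x : Fin 3 → ℂ} (hf : AnalyticAt ℂ f x) (k : Fin 3) :
    ContDiffAt ℂ 1 (Psi f k) x := by
  refine contDiffAt_pi.2 fun l => ?_
  by_cases hl : l = k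
  · simp only [Psi, hl, if_true]
    exact hf.contDiffAt
  · simp only [Psi, hl, if_false]
    exact (contDiff_apply ℂ ℂ l).contDiffAt

theorem det_dPsi_ne {x : Fin 3 → ℂ} (hd : pd k f x ≠ 0) : (dPsi f k x).det ≠ 0 := by
  intro h0
  obtain ⟨v, hv, hv0⟩ := (Submodule.ne_bot_iff _).1
    (LinearMap.bot_lt_ker_of_det_eq_zero (f := (dPsi f k x : (Fin 3 → ℂ) →ₗ[ℂ] (Fin 3 → ℂ))) h0).ne'
  apply hv0
  have h1 : ∀ l, dPsi f k x v l = 0 := fun l => by
    have : dPsi f k x v = 0 := hv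
    rw [this]; rfl
  have h2 : ∀ l, l ≠ k → v l = 0 := fun l hl => by
    have := h1 l
    simpa [dPsi, hl] using this
  have h3 : fderiv ℂ f x v = 0 := by
    have := h1 k
    simpa [dPsi] using this
  rw [fderiv_apply_pd, Finset.sum_eq_single k (fun l _ hl => by rw [h2 l hl, zero_mul])
    (fun h => absurd (Finset.mem_univ k) h)] at h3
  funext l
  by_cases hl : l = k
  · rw [hl]
    exact (mul_eq_zero.1 h3).resolve_right hd
  · exact h2 l hl

/-- A local parametrization of `{x ∈ Ω | f x = s, ∂ₖ f x ≠ 0}` as a graph over the plane of the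
coordinates `xᵢ, xⱼ`. -/
structure Patch (f : (Fin 3 → ℂ) → ℂ) (Ω : Set (Fin 3 → ℂ)) (s : ℂ) (i j k : Fin 3) where
  U : Set (Fin 3 → ℂ)
  W : Set (ℂ × ℂ)
  g : ℂ × ℂ → Fin 3 → ℂ
  hU : IsOpen U
  hUΩ : U ⊆ Ω
  hne : ∀ x ∈ U, pd k f x ≠ 0
  hW : IsOpen W
  meas : Measurable g
  hg : ∀ p ∈ W, ContDiffAt ℂ 1 g p
  gU : ∀ p ∈ W, g p ∈ U
  gf : ∀ p ∈ W, f (g p) = s
  gi : ∀ p ∈ W, g p i = p.1
  gj : ∀ p ∈ W, g p j = p.2
  inv : ∀ x ∈ U, f x = s → (x i, x j) ∈ W ∧ g (x i, x j) = x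

/-- the empty patch -/
def Patch.empty (f : (Fin 3 → ℂ) → ℂ) (Ω : Set (Fin 3 → ℂ)) (s : ℂ) (i j k : Fin 3) :
    Patch f Ω s i j k where
  U := ∅
  W := ∅
  g := fun _ => 0
  hU := isOpen_empty
  hUΩ := empty_subset _
  hne := fun _ h => h.elim
  hW := isOpen_empty
  meas := measurable_const
  hg := fun _ h => h.elim
  gU := fun _ h => h.elim
  gf := fun _ h => h.elim
  gi := fun _ h => h.elim
  gj := fun _ h => h.elim
  inv := fun _ h => h.elim

theorem eq_or_eq_or_eq (hij : i ≠ j) (hik : i ≠ k) (hjk : j ≠ k) (l : Fin 3) :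
    l = i ∨ l = j ∨ l = k := by
  revert i j k l
  decide

theorem exists_patch (hΩ : IsOpen Ω) (hf : AnalyticOnNhd ℂ f Ω) (hij : i ≠ j) (hik : i ≠ k)
    (hjk : j ≠ k) {x₀ : Fin 3 → ℂ} (hx₀ : x₀ ∈ Ω) (hd : pd k f x₀ ≠ 0) :
    ∃ P : Patch f Ω s i j k, x₀ ∈ P.U := by
  classical
  set Ω' : Set (Fin 3 → ℂ) := Ω ∩ (pd k f) ⁻¹' {0}ᶜ with hΩ'def
  have hpd : ContinuousOn (pd k f) Ω := by
    have h1 : AnalyticOnNhd ℂ (fderiv ℂ f) Ω := hf.fderiv
    exact (ContinuousLinearMap.apply ℂ ℂ (Pi.single k (1 : ℂ) :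
      Fin 3 → ℂ)).continuous.comp_continuousOn h1.continuousOn
  have hΩ' : IsOpen Ω' := hpd.isOpen_inter_preimage hΩ isOpen_compl_singleton
  have hx₀' : x₀ ∈ Ω' := ⟨hx₀, hd⟩
  have hst : HasStrictFDerivAt (Psi f k)
      (((dPsi f k x₀).toContinuousLinearEquivOfDetNeZero (det_dPsi_ne hd) :
        (Fin 3 → ℂ) ≃L[ℂ] (Fin 3 → ℂ)) : (Fin 3 → ℂ) →L[ℂ] (Fin 3 → ℂ)) x₀ := by
    simpa using hasStrictFDerivAt_Psi (hf x₀ hx₀) k
  set Φ₀ := hst.toOpenPartialHomeomorph (Psi f k) with hΦ₀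
  set Φ := Φ₀.restrOpen Ω' hΩ' with hΦ
  have hcoe : ∀ x, Φ x = Psi f k x := fun x => rfl
  have hsrc : Φ.source = Φ₀.source ∩ Ω' := OpenPartialHomeomorph.restrOpen_source _ _ _
  have hx₀s : x₀ ∈ Φ.source := by
    rw [hsrc]
    exact ⟨hst.mem_toOpenPartialHomeomorph_source, hx₀'⟩
  have hsΩ : Φ.source ⊆ Ω := by
    rw [hsrc]; exact fun x hx => hx.2.1
  have hsne : ∀ x ∈ Φ.source, pd k f x ≠ 0 := by
    rw [hsrc]; exact fun x hx => hx.2.2
  let emb : ℂ × ℂ → Fin 3 → ℂ := fun p l => if l = i then p.1 else if l = j then p.2 else s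
  have hembc : Continuous emb := by
    refine continuous_pi fun l => ?_
    by_cases hi : l = i
    · simp only [emb, hi, if_true]; exact continuous_fst
    · by_cases hj : l = j
      · have : ∀ p : ℂ × ℂ, emb p l = p.2 := fun p => by simp [emb, hj, hij.symm]
        simp only [this]
        exact continuous_snd
      · simp only [emb, hi, hj, if_false]; exact continuous_const
  have hembd : ContDiff ℂ 1 emb := by
    refine contDiff_pi.2 fun l => ?_
    by_cases hi : l = i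
    · simp only [emb, hi, if_true]; exact contDiff_fst
    · by_cases hj : l = j
      · have : ∀ p : ℂ × ℂ, emb p l = p.2 := fun p => by simp [emb, hj, hij.symm]
        simp only [this]
        exact contDiff_snd
      · simp only [emb, hi, hj, if_false]; exact contDiff_const
  set W : Set (ℂ × ℂ) := emb ⁻¹' Φ.target with hWdef
  have hW : IsOpen W := Φ.open_target.preimage hembc
  let g₀ : ℂ × ℂ → Fin 3 → ℂ := fun p => Φ.symm (emb p)
  have hg₀ : ∀ p ∈ W, ContDiffAt ℂ 1 g₀ p := by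
    intro p hp
    have hy : Φ.symm (emb p) ∈ Φ.source := Φ.map_target hp
    have h1 : ContDiffAt ℂ 1 Φ.symm (emb p) := by
      refine Φ.contDiffAt_symm (f₀' := (dPsi f k (Φ.symm (emb p))).toContinuousLinearEquivOfDetNeZero
        (det_dPsi_ne (hsne _ hy))) hp ?_ ?_
      · rw [ContinuousLinearMap.coe_toContinuousLinearEquivOfDetNeZero]
        exact (hasStrictFDerivAt_Psi (hf _ (hsΩ hy)) k).hasFDerivAt
      · exact contDiffAt_Psi (hf _ (hsΩ hy)) k
    exact h1.comp p hembd.contDiffAt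
  let g : ℂ × ℂ → Fin 3 → ℂ := W.piecewise g₀ (fun _ => 0)
  have hgW : ∀ p ∈ W, g p = g₀ p := fun p hp => piecewise_eq_of_mem _ _ _ hp
  have hgsrc : ∀ p ∈ W, g₀ p ∈ Φ.source := fun p hp => Φ.map_target hp
  have hpsi : ∀ p ∈ W, Psi f k (g₀ p) = emb p := fun p hp => Φ.right_inv hp
  have hgf : ∀ p ∈ W, f (g₀ p) = s := by
    intro p hp
    have := congrFun (hpsi p hp) k
    simpa [Psi, emb, hik.symm, hjk.symm] using this
  have hgi : ∀ p ∈ W, g₀ p i = p.1 := by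
    intro p hp
    have := congrFun (hpsi p hp) i
    simpa [Psi, emb, hik] using this
  have hgj : ∀ p ∈ W, g₀ p j = p.2 := by
    intro p hp
    have := congrFun (hpsi p hp) j
    simpa [Psi, emb, hjk, hij.symm] using this
  have hemb : ∀ x : Fin 3 → ℂ, f x = s → Psi f k x = emb (x i, x j) := by
    intro x hx
    funext l
    rcases eq_or_eq_or_eq hij hik hjk l with h | h | h
    · simp [Psi, emb, h, hik]
    · simp [Psi, emb, h, hjk, hij.symm]
    · simp [Psi, emb, h, hik.symm, hjk.symm, hx]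
  refine ⟨⟨Φ.source, W, g, Φ.open_source, hsΩ, hsne, hW, ?_, ?_, ?_, ?_, ?_, ?_, ?_⟩, hx₀s⟩
  · exact ContinuousOn.measurable_piecewise
      (fun p hp => (hg₀ p hp).continuousAt.continuousWithinAt) continuousOn_const hW.measurableSet
  · intro p hp
    refine (hg₀ p hp).congr_of_eventuallyEq ?_
    filter_upwards [hW.mem_nhds hp] with q hq using hgW q hq
  · intro p hp; rw [hgW p hp]; exact hgsrc p hp
  · intro p hp; rw [hgW p hp]; exact hgf p hp
  · intro p hp; rw [hgW p hp]; exact hgi p hp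
  · intro p hp; rw [hgW p hp]; exact hgj p hp
  · intro x hx hxs
    have h1 : (x i, x j) ∈ W := by
      change emb (x i, x j) ∈ Φ.target
      rw [← hemb x hxs]
      exact Φ.map_source hx
    refine ⟨h1, ?_⟩
    rw [hgW _ h1]
    change Φ.symm (emb (x i, x j)) = x
    rw [← hemb x hxs]
    exact Φ.left_inv hx

/-- the surface `{x ∈ Ω | f x = s, ∂ₖ f x ≠ 0}` -/
def Reg (f : (Fin 3 → ℂ) → ℂ) (Ω : Set (Fin 3 → ℂ)) (s : ℂ) (k : Fin 3) : Set (Fin 3 → ℂ) :=
  {x | x ∈ Ω ∧ f x = s ∧ pd k f x ≠ 0}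

theorem measurableSet_level (hΩ : IsOpen Ω) (hf : ContinuousOn f Ω) (s : ℂ) :
    MeasurableSet {x | x ∈ Ω ∧ f x = s} := by
  have h1 : IsOpen (Ω ∩ f ⁻¹' {s}ᶜ) := hf.isOpen_inter_preimage hΩ isOpen_compl_singleton
  have h2 : {x | x ∈ Ω ∧ f x = s} = Ω \ (Ω ∩ f ⁻¹' {s}ᶜ) := by
    ext x
    simp only [mem_ofPred_eq, Set.mem_sdiff, mem_inter_iff, mem_preimage, mem_compl_iff,
      mem_singleton_iff, not_and, not_not]
    constructor
    · rintro ⟨h, h'⟩; exact ⟨h, fun _ => h'⟩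
    · rintro ⟨h, h'⟩; exact ⟨h, h' h⟩
  rw [h2]
  exact hΩ.measurableSet.diff h1.measurableSet

theorem measurableSet_Reg (hΩ : IsOpen Ω) (hf : ContinuousOn f Ω) (s : ℂ) (k : Fin 3) :
    MeasurableSet (Reg f Ω s k) := by
  have h1 : MeasurableSet ((pd k f) ⁻¹' {0}ᶜ) :=
    measurable_pd k f (measurableSet_singleton 0).compl
  have h2 : Reg f Ω s k = {x | x ∈ Ω ∧ f x = s} ∩ (pd k f) ⁻¹' {0}ᶜ := by
    ext x
    simp only [Reg, mem_ofPred_eq, mem_inter_iff, mem_preimage, mem_compl_iff, mem_singleton_iff]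
    tauto
  rw [h2]
  exact (measurableSet_level hΩ hf s).inter h1

/-- the surface is a countable disjoint union of Borel pieces of patches -/
theorem exists_patches (hΩ : IsOpen Ω) (hf : AnalyticOnNhd ℂ f Ω) (hij : i ≠ j) (hik : i ≠ k)
    (hjk : j ≠ k) (s : ℂ) :
    ∃ (P : ℕ → Patch f Ω s i j k) (A : ℕ → Set (Fin 3 → ℂ)), (∀ n, MeasurableSet (A n)) ∧
      Pairwise (Function.onFun Disjoint A) ∧ (∀ n, A n ⊆ (P n).U) ∧
      Reg f Ω s k = ⋃ n, A n := by
  have hloc : ∀ x ∈ Reg f Ω s k, ∃ P : Patch f Ω s i j k, x ∈ P.U := fun x hx =>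
    exists_patch hΩ hf hij hik hjk hx.1 hx.2.2
  have : Nonempty (Patch f Ω s i j k) := ⟨Patch.empty f Ω s i j k⟩
  choose! Q hQ using hloc
  obtain ⟨t, hts, htc, hst⟩ := TopologicalSpace.countable_cover_nhdsWithin
    (f := fun x => (Q x).U) (s := Reg f Ω s k) fun x hx =>
      mem_nhdsWithin_of_mem_nhds ((Q x).hU.mem_nhds (hQ x hx))
  rcases (Reg f Ω s k).eq_empty_or_nonempty with he | hne
  · refine ⟨fun _ => Patch.empty f Ω s i j k, fun _ => ∅, fun _ => MeasurableSet.empty,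
      fun _ _ _ => disjoint_empty _, fun _ => empty_subset _, by simp [he]⟩
  have htne : t.Nonempty := by
    obtain ⟨x, hx⟩ := hne
    obtain ⟨y, hy, -⟩ := mem_iUnion₂.1 (hst hx)
    exact ⟨y, hy⟩
  obtain ⟨u, hu⟩ := htc.exists_eq_range htne
  let B : ℕ → Set (Fin 3 → ℂ) := fun n => (Q (u n)).U ∩ Reg f Ω s k
  have hB : ∀ n, MeasurableSet (B n) := fun n =>
    (Q (u n)).hU.measurableSet.inter (measurableSet_Reg hΩ hf.continuousOn s k)
  refine ⟨fun n => Q (u n), disjointed B, fun n => MeasurableSet.disjointed hB n,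
    disjoint_disjointed B, fun n => (disjointed_subset B n).trans inter_subset_left, ?_⟩
  rw [iUnion_disjointed]
  apply Subset.antisymm
  · intro x hx
    obtain ⟨y, hy, hxy⟩ := mem_iUnion₂.1 (hst hx)
    rw [hu] at hy
    obtain ⟨n, rfl⟩ := hy
    exact mem_iUnion.2 ⟨n, hxy, hx⟩
  · exact iUnion_subset fun n => inter_subset_right

end Vale.Agent.P298.H373
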